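import Vale.Agent.P329.H657.Skew

/-!
# Limit sets, minimal subsets and their `ZMod p` extensions (non-invertible maps, maps continuous
only at the points of the set considered)
-/

set_option autoImplicit false
set_option linter.unusedSectionVars false

namespace Vale.Agent.P329.H657

open Set Filter Topology

/-! ### limit sets of sequences -/

section acc

variable {X Z : Type*} [TopologicalSpace X] [TopologicalSpace Z]

/-- the limit set of a sequence -/
def Acc (z : ℕ → X) : Set X := {x | MapClusterPt x atTop z}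

theorem acc_closed (z : ℕ → X) : IsClosed (Acc z) := isClosed_setOfPred_clusterPt

theorem acc_nonempty [CompactSpace X] (z : ℕ → X) : (Acc z).Nonempty :=
  exists_clusterPt_of_compactSpace _

theorem acc_frequently {z : ℕ → X} {x : X} (hx : x ∈ Acc z) {U : Set X} (hU : U ∈ 𝓝 x) :
    ∃ᶠ k in atTop, z k ∈ U := MapClusterPt.frequently hx hU

theorem mem_acc_iff {z : ℕ → X} {x : X} : x ∈ Acc z ↔ ∀ U ∈ 𝓝 x, ∃ᶠ k in atTop, z k ∈ U :=
  mapClusterPt_iff_frequently

theorem acc_map {z : ℕ → X} {x : X} {Φ : X → Z} (hΦ : ContinuousAt Φ x) (hx : x ∈ Acc z) :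
    Φ x ∈ Acc (fun k => Φ (z k)) := MapClusterPt.continuousAt_comp hΦ hx

theorem acc_succ {z : ℕ → X} {x : X} (hx : x ∈ Acc (fun k => z (k + 1))) : x ∈ Acc z :=
  MapClusterPt.of_comp (tendsto_add_atTop_nat 1) hx

/-- a point of the limit set where the dynamics is continuous is mapped into the limit set -/
theorem acc_step {z : ℕ → X} {S : X → X} {x : X} (hz : ∀ k, z (k + 1) = S (z k))
    (hS : ContinuousAt S x) (hx : x ∈ Acc z) : S x ∈ Acc z := by
  apply acc_succ
  simp only [hz]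
  exact acc_map hS hx

/-- a limit point of the first coordinate lifts to a limit point -/
theorem acc_lift [CompactSpace Z] {y : ℕ → X} {s : ℕ → Z} {x : X} (hx : x ∈ Acc y) :
    ∃ t, (x, t) ∈ Acc (fun k => (y k, s k)) := by
  obtain ⟨U, hU, hUx⟩ := mapClusterPt_iff_ultrafilter.1 hx
  have h1 := Ultrafilter.le_nhds_lim (U.map s)
  exact ⟨(U.map s).lim, mapClusterPt_iff_ultrafilter.2 ⟨U, hU, hUx.prodMk_nhds h1⟩⟩

end acc

/-! ### minimal sets -/

section minon

variable {X Z : Type*} [TopologicalSpace X] [TopologicalSpace Z]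

/-- `M` is a minimal closed non-empty `T`-invariant set -/
def MinOn (T : X → X) (M : Set X) : Prop :=
  IsClosed M ∧ M.Nonempty ∧ MapsTo T M M ∧
    ∀ C : Set X, IsClosed C → C.Nonempty → MapsTo T C C → C ⊆ M → C = M

theorem exists_minOn [CompactSpace X] {T : X → X} {C : Set X} (hC : IsClosed C)
    (hne : C.Nonempty) (hm : MapsTo T C C) : ∃ M ⊆ C, MinOn T M := by
  have : CompactSpace C := isCompact_iff_compactSpace.1 hC.isCompact
  have : Nonempty C := hne.to_subtype
  obtain ⟨M', hM'c, hM'n, hM'm, hM'⟩ := exists_minimal_inv (X := C)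
    (S := fun x => ⟨T x.1, hm x.2⟩) inferInstance
  refine ⟨Subtype.val '' M', ?_, hC.isClosedEmbedding_subtypeVal.isClosedMap _ hM'c,
    hM'n.image _, ?_, ?_⟩
  · rintro _ ⟨x, _, rfl⟩
    exact x.2
  · rintro _ ⟨x, hx, rfl⟩
    exact ⟨_, hM'm hx, rfl⟩
  · intro D h1 h2 h3 h4
    have h5 := hM' (Subtype.val ⁻¹' D) (h1.preimage continuous_subtype_val) ?_ ?_ ?_
    · rw [← h5, Subtype.image_preimage_coe, inter_eq_self_of_subset_right]
      refine h4.trans ?_
      rintro _ ⟨x, _, rfl⟩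
      exact x.2
    · obtain ⟨x, hx⟩ := h2
      obtain ⟨y, _, hy⟩ := h4 hx
      exact ⟨y, by rwa [mem_preimage, hy]⟩
    · intro x hx
      exact h3 hx
    · intro x hx
      obtain ⟨y, hy, hyx⟩ := h4 hx
      rwa [← Subtype.ext hyx]

theorem MinOn.eq_of_subset {T : X → X} {M M' : Set X} (h : MinOn T M) (h' : MinOn T M')
    (hs : M ⊆ M') : M = M' := h'.2.2.2 M h.1 h.2.1 h.2.2.1 hs

theorem MinOn.eq_or_disjoint {T : X → X} {M M' : Set X} (h : MinOn T M) (h' : MinOn T M') :
    M = M' ∨ Disjoint M M' := by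
  by_cases hne : (M ∩ M').Nonempty
  · left
    have h1 : MapsTo T (M ∩ M') (M ∩ M') := fun x hx => ⟨h.2.2.1 hx.1, h'.2.2.1 hx.2⟩
    have h2 := h.2.2.2 _ (h.1.inter h'.1) hne h1 inter_subset_left
    have h3 := h'.2.2.2 _ (h.1.inter h'.1) hne h1 inter_subset_right
    rw [← h2, h3]
  · right
    rw [Set.disjoint_iff_inter_eq_empty]
    exact not_nonempty_iff_eq_empty.1 hne

/-- images of minimal sets are minimal -/
theorem MinOn.image [CompactSpace X] [T2Space Z] {S : X → X} {T : Z → Z} {K : Set X}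
    (h : MinOn S K) {Φ : X → Z} (hΦ : ContinuousOn Φ K) (he : ∀ x ∈ K, Φ (S x) = T (Φ x)) :
    MinOn T (Φ '' K) := by
  refine ⟨(h.1.isCompact.image_of_continuousOn hΦ).isClosed, h.2.1.image _, ?_, ?_⟩
  · rintro _ ⟨x, hx, rfl⟩
    exact ⟨S x, h.2.2.1 hx, he x hx⟩
  · intro C hC hne hm hs
    refine Subset.antisymm hs ?_
    have h1 := h.2.2.2 (K ∩ Φ ⁻¹' C) (hΦ.preimage_isClosed_of_isClosed h.1 hC) ?_ ?_
      inter_subset_left
    · rintro _ ⟨x, hx, rfl⟩
      rw [← h1] at hx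
      exact hx.2
    · obtain ⟨z, hz⟩ := hne
      obtain ⟨x, hx, rfl⟩ := hs hz
      exact ⟨x, hx, hz⟩
    · intro x hx
      refine ⟨h.2.2.1 hx.1, ?_⟩
      show Φ (S x) ∈ C
      rw [he x hx.1]
      exact hm hx.2

theorem MinOn.iterate_mem {T : X → X} {M : Set X} (h : MinOn T M) {x : X} (hx : x ∈ M) (n : ℕ) :
    T^[n] x ∈ M := h.2.2.1.iterate n hx

/-- the restriction of `T` to `M` -/
def restr {T : X → X} {M : Set X} (h : MinOn T M) (x : M) : M := ⟨T x.1, h.2.2.1 x.2⟩

theorem restr_iter {T : X → X} {M : Set X} (h : MinOn T M) (n : ℕ) (x : M) :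
    ((restr h)^[n] x : X) = T^[n] x.1 := by
  induction n generalizing x with
  | zero => rfl
  | succ n ih => rw [Function.iterate_succ_apply, Function.iterate_succ_apply, ih]; rfl

theorem MinOn.min {T : X → X} {M : Set X} (h : MinOn T M) : Min (restr h) := by
  intro C hC hne hm
  have h1 := h.2.2.2 (Subtype.val '' C) (h.1.isClosedEmbedding_subtypeVal.isClosedMap _ hC)
    (hne.image _) ?_ ?_
  · refine eq_univ_of_forall fun x => ?_
    have h2 : x.1 ∈ Subtype.val '' C := by rw [h1]; exact x.2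
    obtain ⟨y, hy, hyx⟩ := h2
    rwa [← Subtype.ext hyx]
  · rintro _ ⟨x, hx, rfl⟩
    exact ⟨_, hm hx, rfl⟩
  · rintro _ ⟨x, _, rfl⟩
    exact x.2

theorem MinOn.continuous_restr {T : X → X} {M : Set X} (h : MinOn T M)
    (hT : ContinuousOn T M) : Continuous (restr h) :=
  (continuousOn_iff_continuous_domRestrict.1 hT).subtype_mk _

/-- bounded gaps: every point of a minimal set enters an open set which meets it in bounded time -/
theorem MinOn.bdd [CompactSpace X] {T : X → X} {M : Set X} (h : MinOn T M)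
    (hT : ContinuousOn T M) {U : Set X} (hU : IsOpen U) (hne : (M ∩ U).Nonempty) :
    ∃ N : ℕ, ∀ x ∈ M, ∃ n ≤ N, T^[n] x ∈ U := by
  have hR := h.continuous_restr hT
  have : CompactSpace M := isCompact_iff_compactSpace.1 h.1.isCompact
  have hV : IsOpen ((Subtype.val : M → X) ⁻¹' U) := hU.preimage continuous_subtype_val
  have hit : ∀ x : M, ∃ n : ℕ, (restr h)^[n] x ∈ (Subtype.val : M → X) ⁻¹' U := by
    intro x
    obtain ⟨u, hu, huU⟩ := hne
    obtain ⟨y, hy, n, rfl⟩ := ((Min_iff_dense hR).1 h.min x).inter_open_nonempty _ hV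
      ⟨⟨u, hu⟩, huU⟩
    exact ⟨n, hy⟩
  have h1 : (univ : Set M) ⊆ ⋃ n : ℕ, (restr h)^[n] ⁻¹' ((Subtype.val : M → X) ⁻¹' U) :=
    fun x _ => mem_iUnion.2 (hit x)
  obtain ⟨t, ht⟩ := isCompact_univ.elim_finite_subcover _
    (fun n => hV.preimage (hR.iterate n)) h1
  refine ⟨t.sup id, fun x hx => ?_⟩
  obtain ⟨n, hn, hxn⟩ : ∃ n ∈ t, (restr h)^[n] (⟨x, hx⟩ : M) ∈ (Subtype.val : M → X) ⁻¹' U := by
    simpa using ht (mem_univ (⟨x, hx⟩ : M))
  refine ⟨n, Finset.le_sup (f := id) hn, ?_⟩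
  rw [mem_preimage, restr_iter] at hxn
  exact hxn

/-- the same with a lower bound for the time -/
theorem MinOn.bdd' [CompactSpace X] {T : X → X} {M : Set X} (h : MinOn T M)
    (hT : ContinuousOn T M) {U : Set X} (hU : IsOpen U) (hne : (M ∩ U).Nonempty) (a : ℕ) :
    ∃ N : ℕ, ∀ x ∈ M, ∃ n, a ≤ n ∧ n ≤ N ∧ T^[n] x ∈ U := by
  obtain ⟨N, hN⟩ := h.bdd hT hU hne
  refine ⟨N + a, fun x hx => ?_⟩
  obtain ⟨n, hn, hxn⟩ := hN (T^[a] x) (h.iterate_mem hx a)
  rw [← Function.iterate_add_apply] at hxn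
  exact ⟨n + a, by omega, by omega, hxn⟩

end minon

/-! ### coboundaries -/

section cob

variable {X : Type*} [TopologicalSpace X] {p : ℕ}

/-- `h` is a coboundary on `M` -/
def Cob (T : X → X) (M : Set X) (h : X → ZMod p) : Prop :=
  ∃ ψ : X → ZMod p, ContinuousOn ψ M ∧ ∀ x ∈ M, h x = ψ x - ψ (T x)

variable {T : X → X} {M : Set X} {h h' : X → ZMod p}

theorem Cob.congr (H : Cob T M h) (he : ∀ x ∈ M, h' x = h x) : Cob T M h' := by
  obtain ⟨ψ, h1, h2⟩ := H
  exact ⟨ψ, h1, fun x hx => (he x hx).trans (h2 x hx)⟩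

theorem Cob.zero : Cob T M (fun _ => (0 : ZMod p)) :=
  ⟨fun _ => 0, continuousOn_const, fun _ _ => by simp⟩

theorem Cob.add (H : Cob T M h) (H' : Cob T M h') : Cob T M (fun x => h x + h' x) := by
  obtain ⟨ψ, h1, h2⟩ := H
  obtain ⟨ψ', h1', h2'⟩ := H'
  exact ⟨fun x => ψ x + ψ' x, h1.add h1', fun x hx => by
    show h x + h' x = (ψ x + ψ' x) - (ψ (T x) + ψ' (T x))
    rw [h2 x hx, h2' x hx]; ring⟩

theorem Cob.mul (a : ZMod p) (H : Cob T M h) : Cob T M (fun x => a * h x) := by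
  obtain ⟨ψ, h1, h2⟩ := H
  exact ⟨fun x => a * ψ x, continuousOn_const.mul h1, fun x hx => by
    show a * h x = a * ψ x - a * ψ (T x)
    rw [h2 x hx]; ring⟩

theorem Cob.neg (H : Cob T M h) : Cob T M (fun x => - h x) :=
  (H.mul (-1)).congr fun _ _ => by ring

theorem Cob.sub (H : Cob T M h) (H' : Cob T M h') : Cob T M (fun x => h x - h' x) :=
  (H.add H'.neg).congr fun _ _ => by ring

/-- `b` continuous on `M`: `b - b ∘ T` is a coboundary -/
theorem Cob.of_diff {b : X → ZMod p} (hb : ContinuousOn b M) :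
    Cob T M (fun x => b x - b (T x)) := ⟨b, hb, fun _ _ => rfl⟩

/-- adding a coboundary does not change the class -/
theorem Cob.iff_of_diff {b : X → ZMod p} (hb : ContinuousOn b M)
    (he : ∀ x ∈ M, h' x = h x + (b x - b (T x))) : Cob T M h' ↔ Cob T M h := by
  constructor
  · intro H
    refine (H.sub (Cob.of_diff (T := T) hb)).congr fun x hx => ?_
    rw [he x hx]; ring
  · intro H
    exact (H.add (Cob.of_diff (T := T) hb)).congr he

/-- pull back of a coboundary along an equivariant map -/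
theorem Cob.pull {Z : Type*} [TopologicalSpace Z] {S : Z → Z} {K : Set Z} {Φ : Z → X}
    (H : Cob T M h) (hΦ : ContinuousOn Φ K) (hK : MapsTo Φ K M) (he : ∀ x ∈ K, Φ (S x) = T (Φ x)) :
    Cob S K (fun x => h (Φ x)) := by
  obtain ⟨ψ, h1, h2⟩ := H
  refine ⟨fun x => ψ (Φ x), h1.comp hΦ hK, fun x hx => ?_⟩
  show h (Φ x) = ψ (Φ x) - ψ (Φ (S x))
  rw [he x hx, h2 _ (hK hx)]

end cob

/-! ### extensions by `ZMod p` -/

section ext

variable {X : Type*} [TopologicalSpace X] {p : ℕ}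

/-- the skew product towards the past -/
def sk (T : X → X) (h : X → ZMod p) (z : X × ZMod p) : X × ZMod p := (T z.1, z.2 - h z.1)

theorem sk_continuousAt {T : X → X} {h : X → ZMod p} {z : X × ZMod p} (hT : ContinuousAt T z.1)
    (hh : ContinuousAt h z.1) : ContinuousAt (sk T h) z := by
  have h1 : ContinuousAt (fun z : X × ZMod p => T z.1) z :=
    ContinuousAt.comp (f := Prod.fst) (g := T) hT continuousAt_fst
  have h2 : ContinuousAt (fun z : X × ZMod p => h z.1) z :=
    ContinuousAt.comp (f := Prod.fst) (g := h) hh continuousAt_fst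
  exact h1.prodMk (continuousAt_snd.sub h2)

theorem sk_continuousOn {T : X → X} {h : X → ZMod p} {M : Set X} (hT : ContinuousOn T M)
    (hh : ContinuousOn h M) : ContinuousOn (sk T h) (M ×ˢ univ) := by
  have h0 : MapsTo (Prod.fst : X × ZMod p → X) (M ×ˢ univ) M := fun z hz => hz.1
  exact (hT.comp continuousOn_fst h0).prodMk (continuousOn_snd.sub (hh.comp continuousOn_fst h0))

/-- **strands**: a minimal set over `M` in the limit set of the extended sequence -/
theorem exists_strand [CompactSpace X] [T2Space X] [NeZero p] {T : X → X} {h : X → ZMod p}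
    {M : Set X} (hM : MinOn T M) {y : ℕ → X} {s : ℕ → ZMod p} (hMy : M ⊆ Acc y)
    (hy : ∀ k, y (k + 1) = T (y k)) (hs : ∀ k, s (k + 1) = s k - h (y k))
    (hT : ∀ x ∈ M, ContinuousAt T x) (hh : ∀ x ∈ M, ContinuousAt h x) :
    ∃ K : Set (X × ZMod p), K ⊆ Acc (fun k => (y k, s k)) ∧ K ⊆ M ×ˢ univ ∧
      MinOn (sk T h) K ∧ Prod.fst '' K = M := by
  have h0 : MapsTo (sk T h) (Acc (fun k => (y k, s k)) ∩ M ×ˢ univ)
      (Acc (fun k => (y k, s k)) ∩ M ×ˢ univ) := by
    rintro z ⟨h1, h2⟩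
    refine ⟨acc_step (S := sk T h) (fun k => ?_) ?_ h1, hM.2.2.1 h2.1, trivial⟩
    · show (y (k + 1), s (k + 1)) = (T (y k), s k - h (y k))
      rw [hy, hs]
    · exact sk_continuousAt (hT _ h2.1) (hh _ h2.1)
  have hne : (Acc (fun k => (y k, s k)) ∩ M ×ˢ univ).Nonempty := by
    obtain ⟨x, hx⟩ := hM.2.1
    obtain ⟨t, ht⟩ := acc_lift (s := s) (hMy hx)
    exact ⟨(x, t), ht, hx, trivial⟩
  obtain ⟨K, hK, hKm⟩ := exists_minOn (T := sk T h)
    ((acc_closed (fun k => (y k, s k))).inter (hM.1.prod isClosed_univ)) hne h0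
  refine ⟨K, fun z hz => (hK hz).1, fun z hz => (hK hz).2, hKm, ?_⟩
  have h1 := hKm.image (T := T) (Φ := Prod.fst) continuousOn_fst (fun _ _ => rfl)
  refine h1.eq_of_subset hM ?_
  rintro _ ⟨z, hz, rfl⟩
  exact (hK hz).2.1

/-- **Lemma N, first half**: over a minimal set where `h` is not a coboundary the extension is
minimal -/
theorem sk_min [CompactSpace X] [T2Space X] [Fact p.Prime] {T : X → X} {h : X → ZMod p}
    {M : Set X} (hM : MinOn T M) (hT : ContinuousOn T M) (hh : ContinuousOn h M)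
    (hc : ¬ Cob T M h) : MinOn (sk T h) (M ×ˢ univ) := by
  have : CompactSpace M := isCompact_iff_compactSpace.1 hM.1.isCompact
  have : Nonempty M := hM.2.1.to_subtype
  have h1 : Min (skew (restr hM) (fun x : M => - h x.1)) := by
    refine skew_min hM.min ?_
    rintro ⟨f, hf, hf'⟩
    apply hc
    classical
    refine ⟨fun x => if hx : x ∈ M then f ⟨x, hx⟩ else 0, ?_, ?_⟩
    · rw [continuousOn_iff_continuous_domRestrict]
      convert hf using 1
      ext x
      simp [x.2]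
    · intro x hx
      have h2 := hf' ⟨x, hx⟩
      have h3 : T x ∈ M := hM.2.2.1 hx
      have h4 : f (restr hM ⟨x, hx⟩) = f ⟨T x, h3⟩ := rfl
      rw [h4] at h2
      have h5 : h x = f ⟨x, hx⟩ - f ⟨T x, h3⟩ := by
        have h6 : - h x = f ⟨T x, h3⟩ - f ⟨x, hx⟩ := h2
        rw [← neg_inj, h6]; ring
      simp only [dif_pos hx, dif_pos h3, h5]
  refine ⟨hM.1.prod isClosed_univ, hM.2.1.prod univ_nonempty, ?_, ?_⟩
  · rintro z hz
    exact ⟨hM.2.2.1 hz.1, trivial⟩
  · intro C hC hne hm hs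
    refine Subset.antisymm hs ?_
    have hj : Continuous (fun z : M × ZMod p => (z.1.1, z.2)) :=
      (continuous_subtype_val.comp continuous_fst).prodMk continuous_snd
    have h2 := h1 ((fun z : M × ZMod p => (z.1.1, z.2)) ⁻¹' C) (hC.preimage hj) ?_ ?_
    · rintro ⟨x, t⟩ hz
      have h3 : ((⟨x, hz.1⟩ : M), t) ∈ ((fun z : M × ZMod p => (z.1.1, z.2)) ⁻¹' C) := by
        rw [h2]; trivial
      exact h3
    · obtain ⟨z, hz⟩ := hne
      exact ⟨(⟨z.1, (hs hz).1⟩, z.2), hz⟩
    · intro z hz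
      have h3 := hm hz
      show ((T z.1.1, z.2 + - h z.1.1) : X × ZMod p) ∈ C
      rw [← sub_eq_add_neg]
      exact h3

/-- over a minimal set where `h` is not a coboundary every strand is everything -/
theorem strand_eq [CompactSpace X] [T2Space X] [Fact p.Prime] {T : X → X} {h : X → ZMod p}
    {M : Set X} (hM : MinOn T M) (hT : ContinuousOn T M) (hh : ContinuousOn h M)
    (hc : ¬ Cob T M h) {K : Set (X × ZMod p)} (hK : MinOn (sk T h) K) (hKM : K ⊆ M ×ˢ univ) :
    K = M ×ˢ univ := hK.eq_of_subset (sk_min hM hT hh hc) hKM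

/-- **fibre sums**: a coboundary on the extension has a coboundary as fibre sum -/
theorem Cob.fibre_sum [NeZero p] {T : X → X} {h : X → ZMod p} {M : Set X} {Θ : X × ZMod p → ZMod p}
    {τ : X → ZMod p} (H : Cob (sk T h) (M ×ˢ univ) Θ) (hτ : ∀ x ∈ M, ∑ s, Θ (x, s) = τ x) :
    Cob T M τ := by
  obtain ⟨F, hF, hF'⟩ := H
  refine ⟨fun x => ∑ s, F (x, s), ?_, fun x hx => ?_⟩
  · refine continuousOn_finsetSum _ fun s _ => ?_
    exact hF.comp (continuousOn_id.prodMk continuousOn_const) fun x hx => ⟨hx, trivial⟩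
  · show τ x = ∑ s, F (x, s) - ∑ s, F (T x, s)
    rw [← hτ x hx]
    have h1 : ∑ s, Θ (x, s) = ∑ s, (F (x, s) - F (T x, s - h x)) :=
      Finset.sum_congr rfl fun s _ => hF' (x, s) ⟨hx, trivial⟩
    rw [h1, Finset.sum_sub_distrib]
    congr 1
    exact Fintype.sum_equiv (Equiv.subRight (h x)) _ _ fun s => rfl

/-- **Lemma N, second half**: `h [s = ρ] + u ([s - h = ρ] - [s = ρ])` is not a coboundary on the
extension if `h` is not one on `M` -/
theorem not_cob_theta [NeZero p] {T : X → X} {h : X → ZMod p} {M : Set X} (hc : ¬ Cob T M h)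
    (ρ : ZMod p) (u : X → ZMod p) :
    ¬ Cob (sk T h) (M ×ˢ univ) (fun z => (if z.2 = ρ then h z.1 else 0) +
      u z.1 * ((if z.2 - h z.1 = ρ then 1 else 0) - (if z.2 = ρ then 1 else 0))) := by
  intro H
  refine hc (H.fibre_sum fun x _ => ?_)
  have h1 : ∀ a : ZMod p, ∑ s : ZMod p, (if s = ρ then a else 0) = a := fun a => by
    simp
  have h2 : ∑ s : ZMod p, (if s - h x = ρ then (1 : ZMod p) else 0) = 1 := by
    simp [sub_eq_iff_eq_add]
  have h3 : ∑ s : ZMod p, ((if s = ρ then h x else 0) +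
      u x * ((if s - h x = ρ then 1 else 0) - (if s = ρ then 1 else 0))) = h x := by
    rw [Finset.sum_add_distrib, ← Finset.mul_sum, Finset.sum_sub_distrib, h2, h1, h1]
    ring
  exact h3

end ext

end Vale.Agent.P329.H657
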