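import Vale.Agent.P329.H962.Rows
import Vale.Agent.P329.H657.Zone

/-!
# RowF1: compactness of `ℕ → B` and minimal sets; bridge `MinOn sh M ↔ Mn M`
-/

set_option autoImplicit false

namespace Vale.Agent.P329.H657

open Set Filter Topology H962

section bridge

variable {B : Type} [TopologicalSpace B] [DiscreteTopology B]

theorem mem_closure_iff_win {C : Set (ℕ → B)} {x : ℕ → B} :
    x ∈ closure C ↔ ∀ J, ∃ m ∈ C, ∀ i < J, m i = x i := by
  constructor
  · intro h J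
    obtain ⟨m, hm, hmC⟩ := mem_closure_iff.1 h (PiNat.cylinder x J) (PiNat.isOpen_cylinder _ x J)
      (fun _ _ => rfl)
    exact ⟨m, hmC, hm⟩
  · intro h
    rw [(PiNat.isTopologicalBasis_cylinders (E := fun _ : ℕ => B)).mem_closure_iff]
    rintro _ ⟨y, n, rfl⟩ hx
    obtain ⟨m, hm, hmx⟩ := h n
    exact ⟨m, fun i hi => (hmx i hi).trans (hx i hi), hm⟩

theorem isClosed_iff_win {C : Set (ℕ → B)} :
    IsClosed C ↔ ∀ z, (∀ J, ∃ m ∈ C, ∀ i < J, m i = z i) → z ∈ C := by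
  rw [← closure_subset_iff_isClosed]
  exact ⟨fun h z hz => h (mem_closure_iff_win.2 hz), fun h z hz => h z (mem_closure_iff_win.1 hz)⟩

omit [TopologicalSpace B] [DiscreteTopology B] in
theorem sh_iter (k : ℕ) (z : ℕ → B) : sh^[k] z = fun i => z (k + i) := by
  induction k generalizing z with
  | zero => funext i; simp
  | succ k ih =>
    rw [Function.iterate_succ_apply, ih]
    funext i
    show z (k + i + 1) = z (k + 1 + i)
    congr 1
    omega

theorem Mn.minOn {M : Set (ℕ → B)} (h : Mn M) : MinOn sh M := by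
  refine ⟨isClosed_iff_win.2 h.cl, h.ne, h.inv, fun C hC hne hm hs => Subset.antisymm hs ?_⟩
  intro m' hm'
  obtain ⟨m, hmC⟩ := hne
  refine isClosed_iff_win.1 hC m' fun J => ?_
  obtain ⟨k, hk⟩ := h.mn m (hs hmC) m' hm' J
  exact ⟨sh^[k] m, hm.iterate k hmC, fun i hi => by rw [sh_iter]; exact hk i hi⟩

theorem MinOn.mn' {M : Set (ℕ → B)} (h : MinOn sh M) : Mn M := by
  refine ⟨h.2.1, isClosed_iff_win.1 h.1, h.2.2.1, fun m hm m' hm' J => ?_⟩
  have h1 := h.2.2.2 (closure {x | ∃ k : ℕ, x = sh^[k] m}) isClosed_closure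
    ⟨m, subset_closure ⟨0, rfl⟩⟩ ?_ ?_
  · rw [← h1] at hm'
    obtain ⟨_, ⟨k, rfl⟩, hk⟩ := mem_closure_iff_win.1 hm' J
    refine ⟨k, fun i hi => ?_⟩
    have h2 := hk i hi
    rwa [sh_iter] at h2
  · intro x hx
    rw [mem_closure_iff_win] at hx ⊢
    intro J
    obtain ⟨_, ⟨k, rfl⟩, hk⟩ := hx (J + 1)
    refine ⟨sh^[k + 1] m, ⟨k + 1, rfl⟩, fun i hi => ?_⟩
    rw [Function.iterate_succ_apply']
    exact hk (i + 1) (by omega)
  · refine closure_minimal ?_ h.1
    rintro _ ⟨k, rfl⟩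
    exact h.iterate_mem hm k

end bridge

/-- minimal closed shift invariant sets exist inside closed ones -/
theorem exists_Mn {B : Type} [Finite B] {C : Set (ℕ → B)} (hne : C.Nonempty)
    (hcl : ∀ z, (∀ J, ∃ m ∈ C, ∀ i < J, m i = z i) → z ∈ C) (hinv : ∀ m ∈ C, sh m ∈ C) :
    ∃ M ⊆ C, Mn M := by
  let _ : TopologicalSpace B := ⊥
  have : DiscreteTopology B := ⟨rfl⟩
  obtain ⟨M, hM, hMm⟩ := exists_minOn (T := sh) (isClosed_iff_win.2 hcl) hne hinv
  exact ⟨M, hM, MinOn.mn' hMm⟩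

/-- König: a sequence of sequences over a finite alphabet has a cluster point -/
theorem exists_cluster {B : Type} [Finite B] (z : ℕ → ℕ → B) :
    ∃ x : ℕ → B, ∀ J n, ∃ k ≥ n, ∀ i < J, z k i = x i := by
  let _ : TopologicalSpace B := ⊥
  have : DiscreteTopology B := ⟨rfl⟩
  obtain ⟨x, hx⟩ := acc_nonempty z
  refine ⟨x, fun J n => ?_⟩
  have h1 := acc_frequently hx ((PiNat.isOpen_cylinder (fun _ : ℕ => B) x J).mem_nhds
    (fun _ _ => rfl))
  obtain ⟨k, hk, hk'⟩ := (frequently_atTop.1 h1) n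
  exact ⟨k, hk, hk'⟩

theorem rowF1 : RowF1 := by
  intro B B' _ _ π z M hM hz
  have hC : ∃ M' ⊆ {m : ℕ → B' | (∀ J, ∃ k, ∀ i < J, z (k + i) = m i) ∧
      (fun i => π (m i)) ∈ M}, Mn M' := by
    refine exists_Mn ?_ ?_ ?_
    · obtain ⟨m, hm⟩ := hM.ne
      choose k hk using hz m hm
      obtain ⟨x, hx⟩ := exists_cluster fun J i => z (k J + i)
      refine ⟨x, fun J => ?_, ?_⟩
      · obtain ⟨J', _, h1⟩ := hx J 0
        exact ⟨k J', h1⟩
      · convert hm using 1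
        funext i
        obtain ⟨J', h1, h2⟩ := hx (i + 1) (i + 1)
        show π (x i) = m i
        rw [← h2 i (by omega)]
        exact hk J' i (by omega)
    · intro x hx
      refine ⟨fun J => ?_, hM.cl _ fun J => ?_⟩
      · obtain ⟨m, hm, h1⟩ := hx J
        obtain ⟨k, hk⟩ := hm.1 J
        exact ⟨k, fun i hi => (hk i hi).trans (h1 i hi)⟩
      · obtain ⟨m, hm, h1⟩ := hx J
        exact ⟨_, hm.2, fun i hi => congrArg π (h1 i hi)⟩
    · intro m hm
      refine ⟨fun J => ?_, hM.inv _ hm.2⟩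
      obtain ⟨k, hk⟩ := hm.1 (J + 1)
      refine ⟨k + 1, fun i hi => ?_⟩
      have h1 := hk (i + 1) (by omega)
      have h2 : k + 1 + i = k + (i + 1) := by omega
      rw [h2, h1]
      rfl
  obtain ⟨M', hM', hMn⟩ := hC
  exact ⟨M', hMn, fun m hm => (hM' hm).1, fun m hm => (hM' hm).2⟩

end Vale.Agent.P329.H657
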