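import Mathlib
import Vale.Agent.P329.H259.Base

/-!
# Decomposition of the functions local over the return stage (helper962's form, #21132)
-/

set_option autoImplicit false
set_option linter.unusedSectionVars false

namespace Vale.Agent.P329.H657.Dec

open Vale.Agent.P329.H259

variable {α : Type} {β γ : Type*} {p : ℕ}

/-- `N h X` = sum of `h` over the non-empty suffixes of `X` (newest letter first) -/
def NN (h : List α → ZMod p) : List α → ZMod p
  | [] => 0
  | x :: X => NN h X + h (x :: X)

/-- finitely many residuals -/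
def FS (G : List α → β) : Prop := (Set.range fun (X : List α) (Y : List α) => G (Y ++ X)).Finite

/-- no non-empty suffix of `V` ends at a cut over `X` -/
def Unc (w : List α → ZMod p) (V X : List α) : Prop := ∀ B, B ≠ [] → B <:+ V → w (B ++ X) = 0

/-- aperiodic along cut-free powers -/
def AP (w : List α → ZMod p) (G : List α → β) : Prop :=
  ∀ v, ∃ N, ∀ n ≥ N, ∀ X Y, Unc w (pw v n) X → G (Y ++ pw v n ++ X) = G (Y ++ pw v (n + 1) ++ X)

/-- number of non-empty suffixes `B` of `S` with `B ++ c` a cut -/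
def nc (w : List α → ZMod p) : List α → List α → ℕ
  | [], _ => 0
  | x :: S, c => nc w S c + if w (x :: S ++ c) ≠ 0 then 1 else 0

/-- memory -/
def Mem (w : List α → ZMod p) (n : ℕ) (G : List α → β) : Prop :=
  ∀ S c c', w c ≠ 0 → w c' ≠ 0 → n ≤ nc w S c → G (S ++ c) = G (S ++ c')

def Lc (w : List α → ZMod p) (G : List α → β) : Prop := FS G ∧ AP w G ∧ ∃ n, Mem w n G

def Rt (w f : List α → ZMod p) : Prop :=
  ∀ r c c', w c ≠ 0 → w c' ≠ 0 → r ≠ [] → f (r ++ c) = f (r ++ c')

def rc (h : List α → ZMod p) (ρ : ZMod p) (X : List α) : ZMod p := if NN h X = ρ then h X else 0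

/-! ### closures -/

section closure

variable {w : List α → ZMod p}

theorem Mem.mono {n m : ℕ} {G : List α → β} (h : Mem w n G) (hnm : n ≤ m) : Mem w m G :=
  fun S c c' h1 h2 h3 => h S c c' h1 h2 (hnm.trans h3)

theorem FS.map {G : List α → β} (hG : FS G) (φ : β → γ) : FS fun X => φ (G X) := by
  refine (hG.image fun r Y => φ (r Y)).subset ?_
  rintro _ ⟨X, rfl⟩
  exact ⟨_, ⟨X, rfl⟩, rfl⟩

theorem FS.prod {G : List α → β} {G' : List α → γ} (hG : FS G) (hG' : FS G') :
    FS fun X => (G X, G' X) := by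
  refine ((Set.Finite.prod hG hG').image fun r Y => (r.1 Y, r.2 Y)).subset ?_
  rintro _ ⟨X, rfl⟩
  exact ⟨(_, _), ⟨⟨X, rfl⟩, ⟨X, rfl⟩⟩, rfl⟩

theorem FS.range {G : List α → β} (hG : FS G) : (Set.range G).Finite := by
  refine (hG.image fun r => r []).subset ?_
  rintro _ ⟨X, rfl⟩
  exact ⟨_, ⟨X, rfl⟩, by simp⟩

theorem FS.tail {G : List α → β} (hG : FS G) : FS fun X => G X.tail := by
  refine ((Set.Finite.prod hG hG.range).image fun r Y => if Y = [] then r.2 else r.1 Y.tail).subset ?_
  rintro _ ⟨X, rfl⟩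
  refine ⟨(fun Y => G (Y ++ X), G X.tail), ⟨⟨X, rfl⟩, ⟨X.tail, rfl⟩⟩, ?_⟩
  funext Y
  cases Y with
  | nil => simp
  | cons y Y => simp

theorem Unc.suffix {V V' X : List α} (h : Unc w V X) (hV : V' <:+ V) : Unc w V' X :=
  fun B h1 h2 => h B h1 (h2.trans hV)

theorem AP.map {G : List α → β} (hG : AP w G) (φ : β → γ) : AP w fun X => φ (G X) := by
  intro v
  obtain ⟨N, hN⟩ := hG v
  exact ⟨N, fun n hn X Y h => congrArg φ (hN n hn X Y h)⟩

theorem AP.prod {G : List α → β} {G' : List α → γ} (hG : AP w G) (hG' : AP w G') :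
    AP w fun X => (G X, G' X) := by
  intro v
  obtain ⟨N, hN⟩ := hG v
  obtain ⟨N', hN'⟩ := hG' v
  exact ⟨max N N', fun n hn X Y h => Prod.ext (hN n (le_trans (le_max_left _ _) hn) X Y h)
    (hN' n (le_trans (le_max_right _ _) hn) X Y h)⟩

theorem AP.tail {G : List α → β} (hG : AP w G) : AP w fun X => G X.tail := by
  intro v
  cases v with
  | nil =>
    refine ⟨0, fun n _ X Y _ => ?_⟩
    have h1 : ∀ k, pw ([] : List α) k = [] := fun k => by
      induction k with
      | zero => rfl
      | succ k ih => rw [pw_succ, ih]; rfl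
    rw [h1, h1]
  | cons x v =>
    obtain ⟨N, hN⟩ := hG (x :: v)
    refine ⟨N + 1, fun n hn X Y h => ?_⟩
    cases Y with
    | cons y Y =>
      simpa using hN n (by omega) X Y h
    | nil =>
      obtain ⟨k, rfl⟩ := Nat.exists_eq_succ_of_ne_zero (show n ≠ 0 by omega)
      have h1 := hN k (by omega) X v (h.suffix ⟨x :: v, rfl⟩)
      have h2 : ([] ++ pw (x :: v) (k + 1) ++ X).tail = v ++ pw (x :: v) k ++ X := by
        simp [pw_succ]
      have h3 : ([] ++ pw (x :: v) (k + 1 + 1) ++ X).tail = v ++ pw (x :: v) (k + 1) ++ X := by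
        simp [pw_succ]
      show G ([] ++ pw (x :: v) (k + 1) ++ X).tail = G ([] ++ pw (x :: v) (k + 1 + 1) ++ X).tail
      rw [h2, h3, h1]

theorem Mem.map {n : ℕ} {G : List α → β} (hG : Mem w n G) (φ : β → γ) :
    Mem w n fun X => φ (G X) :=
  fun S c c' h1 h2 h3 => congrArg φ (hG S c c' h1 h2 h3)

theorem Mem.prod {n n' : ℕ} {G : List α → β} {G' : List α → γ} (hG : Mem w n G)
    (hG' : Mem w n' G') : Mem w (max n n') fun X => (G X, G' X) :=
  fun S c c' h1 h2 h3 => Prod.ext (hG S c c' h1 h2 (le_trans (le_max_left _ _) h3))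
    (hG' S c c' h1 h2 (le_trans (le_max_right _ _) h3))

theorem Mem.tail {n : ℕ} {G : List α → β} (hG : Mem w n G) :
    Mem w (n + 1) fun X => G X.tail := by
  intro S c c' h1 h2 h3
  cases S with
  | nil => simp [nc] at h3
  | cons x S =>
    have h4 : n ≤ nc w S c := by
      have h5 : nc w (x :: S) c ≤ nc w S c + 1 := by
        rw [nc]; split_ifs <;> omega
      omega
    exact hG S c c' h1 h2 h4

theorem Lc.map {G : List α → β} (hG : Lc w G) (φ : β → γ) : Lc w fun X => φ (G X) :=
  ⟨hG.1.map φ, hG.2.1.map φ, hG.2.2.imp fun _ h => h.map φ⟩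

theorem Lc.prod {G : List α → β} {G' : List α → γ} (hG : Lc w G) (hG' : Lc w G') :
    Lc w fun X => (G X, G' X) := by
  obtain ⟨n, hn⟩ := hG.2.2
  obtain ⟨n', hn'⟩ := hG'.2.2
  exact ⟨hG.1.prod hG'.1, hG.2.1.prod hG'.2.1, _, hn.prod hn'⟩

theorem Lc.tail {G : List α → β} (hG : Lc w G) : Lc w fun X => G X.tail := by
  obtain ⟨n, hn⟩ := hG.2.2
  exact ⟨hG.1.tail, hG.2.1.tail, _, hn.tail⟩

theorem Lc.drop {G : List α → β} (hG : Lc w G) (i : ℕ) : Lc w fun X => G (X.drop i) := by
  induction i with
  | zero => simpa using hG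
  | succ i ih =>
    have h : Lc w fun X : List α => G (X.tail.drop i) := ih.tail
    convert h using 2 with X
    rw [List.drop_tail]

theorem nc_le (S c : List α) : nc w S c ≤ S.length := by
  induction S with
  | nil => simp [nc]
  | cons x S ih => rw [nc, List.length_cons]; split_ifs <;> omega

theorem Lc.take [Finite α] (J : ℕ) : Lc w fun X : List α => X.take J := by
  refine ⟨?_, ?_, J, ?_⟩
  · have h1 : (Set.range fun X : List α => X.take J).Finite := by
      refine (List.finite_length_le α J).subset ?_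
      rintro _ ⟨X, rfl⟩
      simp
    refine (h1.image fun r Y => (Y ++ r).take J).subset ?_
    rintro _ ⟨X, rfl⟩
    refine ⟨X.take J, ⟨X, rfl⟩, ?_⟩
    funext Y
    show (Y ++ X.take J).take J = (Y ++ X).take J
    rw [List.take_append, List.take_append, List.take_take]
    congr 2
    omega
  · intro v
    cases v with
    | nil =>
      refine ⟨0, fun n _ X Y _ => ?_⟩
      have h1 : ∀ k, pw ([] : List α) k = [] := fun k => by
        induction k with
        | zero => rfl
        | succ k ih => rw [pw_succ, ih]; rfl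
      rw [h1, h1]
    | cons x v =>
      refine ⟨J, fun n hn X Y _ => ?_⟩
      have h1 : J ≤ (Y ++ pw (x :: v) n).length := by
        rw [List.length_append, pw_length, List.length_cons]
        nlinarith
      have h2 : Y ++ pw (x :: v) (n + 1) ++ X = (Y ++ pw (x :: v) n) ++ ((x :: v) ++ X) := by
        rw [pw_succ']
        simp only [List.append_assoc]
      show (Y ++ pw (x :: v) n ++ X).take J = (Y ++ pw (x :: v) (n + 1) ++ X).take J
      rw [h2, List.take_append_of_le_length h1, List.take_append_of_le_length h1]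
  · intro S c c' _ _ h3
    have h4 : J ≤ S.length := h3.trans (nc_le S c)
    show (S ++ c).take J = (S ++ c').take J
    rw [List.take_append_of_le_length h4, List.take_append_of_le_length h4]

/-- all values of `G` at the newest `J + 1` suffixes -/
theorem Lc.pack {G : List α → β} (hG : Lc w G) (J : ℕ) :
    Lc w fun X => (List.range J).map fun i => G (X.drop i) := by
  induction J with
  | zero =>
    refine ⟨?_, fun v => ⟨0, fun _ _ _ _ _ => rfl⟩, 0, fun _ _ _ _ _ _ => rfl⟩
    exact (Set.finite_singleton (fun _ : List α => ([] : List β))).subset (by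
      rintro _ ⟨X, rfl⟩; simp)
  | succ J ih =>
    have h1 := (ih.prod (hG.drop J)).map fun r => r.1 ++ [r.2]
    convert h1 using 2 with X
    rw [List.range_succ, List.map_append]
    rfl

end closure

/-! ### the decomposition -/

section decomp

variable {h : List α → ZMod p} {ρ : ZMod p}

theorem NN_drop (h : List α → ZMod p) : ∀ (v : List α) (i : ℕ), i ≤ v.length →
    NN h (v.drop i) = NN h v - ∑ l ∈ Finset.range i, h (v.drop l) := by
  intro v i
  induction i with
  | zero => intro _; simp
  | succ i ih =>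
    intro hi
    have h1 := ih (by omega)
    obtain ⟨x, X, hX⟩ : ∃ x X, v.drop i = x :: X := by
      cases hd : v.drop i with
      | nil =>
        have := congrArg List.length hd
        simp at this
        omega
      | cons x X => exact ⟨x, X, rfl⟩
    have h2 : v.drop (i + 1) = X := by
      rw [← List.tail_drop, hX, List.tail_cons]
    rw [Finset.sum_range_succ, ← sub_sub, ← h1, h2, hX]
    simp [NN]

theorem nc_take_drop (w : List α → ZMod p) : ∀ (i : ℕ) (v : List α), i ≤ v.length →
    nc w (v.take i) (v.drop i) =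
      ((Finset.range i).filter fun l => w (v.drop l) ≠ 0).card := by
  intro i
  induction i with
  | zero => intro v _; simp [nc]
  | succ i ih =>
    intro v hv
    cases v with
    | nil => simp at hv
    | cons x v =>
      have h1 := ih v (by simpa using hv)
      rw [List.take_succ_cons, List.drop_succ_cons, nc, h1, List.cons_append,
        List.take_append_drop, Finset.card_filter, Finset.card_filter, Finset.sum_range_succ']
      simp only [List.drop_succ_cons, List.drop_zero]

/-- a valid index for the packed data -/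
def Vi (ρ : ZMod p) (n J : ℕ) (a : ZMod p) (D : List (ZMod p) × List α) (i : ℕ) : Prop :=
  i < J ∧ i ≤ D.2.length ∧ (D.1.getD i 0 ≠ 0 ∧ a - ∑ l ∈ Finset.range i, D.1.getD l 0 = ρ) ∧
    n ≤ {l ∈ Finset.range i | D.1.getD l 0 ≠ 0 ∧
      a - ∑ m ∈ Finset.range l, D.1.getD m 0 = ρ}.card

theorem rc_ne_iff {X : List α} : rc h ρ X ≠ 0 ↔ h X ≠ 0 ∧ NN h X = ρ := by
  unfold rc
  split_ifs with h1
  · exact ⟨fun h2 => ⟨h2, h1⟩, fun h2 => h2.1⟩
  · exact ⟨fun h2 => absurd rfl h2, fun h2 => absurd h2.2 h1⟩

/-- **Decomposition** (585's relative LOC, 363's I3): a function with memory `n` over the return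
stage is, where it sees more than `n` new cuts among the newest `J` suffixes, a function local over
the old stage, once the height `N h v` is known. -/
theorem decomp [Finite α] {w f : List α → ZMod p} (hL : Lc w h) {n : ℕ}
    (hf : Mem (rc h ρ) n f) (J : ℕ) :
    ∃ Φ : ZMod p → List α → ZMod p, (∀ a, Lc w (Φ a)) ∧
      ∀ v : List α, n < {i ∈ Finset.range J | i ≤ v.length ∧ rc h ρ (v.drop i) ≠ 0}.card →
        f v = Φ (NN h v) v := by
  classical
  by_cases hc : ∃ c0, rc h ρ c0 ≠ 0
  swap
  · refine ⟨fun _ _ => 0, fun a => ?_, fun v hv => ?_⟩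
    · exact hL.map fun _ => 0
    · exfalso
      have h1 : {i ∈ Finset.range J | i ≤ v.length ∧ rc h ρ (v.drop i) ≠ 0} = ∅ :=
        Finset.filter_eq_empty_iff.2 fun i _ hi => hc ⟨_, hi.2⟩
      rw [h1] at hv
      simp at hv
  obtain ⟨c0, hc0⟩ := hc
  let G : ZMod p → List (ZMod p) × List α → ZMod p := fun a D =>
    if H : ∃ i, Vi ρ n J a D i then f (D.2.take H.choose ++ c0) else 0
  refine ⟨fun a v => G a ((List.range J).map fun i => h (v.drop i), v.take J), fun a =>
    ((hL.pack J).prod (Lc.take J)).map (G a), fun v hv => ?_⟩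
  set D : List (ZMod p) × List α := ((List.range J).map fun i => h (v.drop i), v.take J) with hD
  have hget : ∀ i < J, D.1.getD i 0 = h (v.drop i) := by
    intro i hi
    rw [hD]
    simp [List.getD_eq_getElem?_getD, hi]
  have hlen : ∀ i < J, (i ≤ D.2.length ↔ i ≤ v.length) := by
    intro i hi
    rw [hD]
    simp only [List.length_take]
    omega
  have hfl : ∀ i < J, i ≤ v.length → ((D.1.getD i 0 ≠ 0 ∧
      NN h v - ∑ l ∈ Finset.range i, D.1.getD l 0 = ρ) ↔ rc h ρ (v.drop i) ≠ 0) := by
    intro i hi hiv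
    rw [rc_ne_iff, hget i hi, NN_drop h v i hiv]
    have h1 : ∑ l ∈ Finset.range i, D.1.getD l 0 = ∑ l ∈ Finset.range i, h (v.drop l) :=
      Finset.sum_congr rfl fun l hl => hget l (by have := Finset.mem_range.1 hl; omega)
    rw [h1]
  have hcount : ∀ i < J, i ≤ v.length →
      {l ∈ Finset.range i | D.1.getD l 0 ≠ 0 ∧
        NN h v - ∑ m ∈ Finset.range l, D.1.getD m 0 = ρ} =
      {l ∈ Finset.range i | rc h ρ (v.drop l) ≠ 0} := by
    intro i hi hiv
    refine Finset.filter_congr fun l hl => ?_
    have h1 := Finset.mem_range.1 hl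
    exact hfl l (by omega) (by omega)
  have hex : ∃ i, Vi ρ n J (NN h v) D i := by
    have hne : ({i ∈ Finset.range J | i ≤ v.length ∧ rc h ρ (v.drop i) ≠ 0}).Nonempty :=
      Finset.card_pos.1 (by omega)
    set A := {i ∈ Finset.range J | i ≤ v.length ∧ rc h ρ (v.drop i) ≠ 0} with hA
    have h1 := A.max'_mem hne
    set i := A.max' hne with hi
    rw [hA, Finset.mem_filter, Finset.mem_range] at h1
    refine ⟨i, h1.1, (hlen i h1.1).2 h1.2.1, (hfl i h1.1 h1.2.1).2 h1.2.2, ?_⟩
    rw [hcount i h1.1 h1.2.1]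
    have h2 : A ⊆ insert i {l ∈ Finset.range i | rc h ρ (v.drop l) ≠ 0} := by
      intro l hl
      rw [Finset.mem_insert, Finset.mem_filter, Finset.mem_range]
      have h3 := A.le_max' l hl
      rw [← hi] at h3
      rw [hA, Finset.mem_filter] at hl
      rcases Nat.lt_or_eq_of_le h3 with h4 | h4
      · exact Or.inr ⟨h4, hl.2.2⟩
      · exact Or.inl h4
    have h3 := (Finset.card_le_card h2).trans (Finset.card_insert_le _ _)
    omega
  have hG : G (NN h v) D = f (D.2.take hex.choose ++ c0) := dif_pos hex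
  show f v = G (NN h v) D
  rw [hG]
  obtain ⟨h1, h2, h3, h4⟩ := hex.choose_spec
  set i := hex.choose
  have h5 : i ≤ v.length := (hlen i h1).1 h2
  rw [hcount i h1 h5] at h4
  have h6 : D.2.take i = v.take i := by
    rw [hD]
    show (v.take J).take i = v.take i
    rw [List.take_take, min_eq_left h1.le]
  rw [h6]
  conv_lhs => rw [← List.take_append_drop i v]
  exact hf _ _ _ ((hfl i h1 h5).1 h3) hc0 (by rw [nc_take_drop _ i v h5]; exact h4)

/-- the version without lengths, when `[]` is no cut -/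
theorem decomp' [Finite α] {w f : List α → ZMod p} (hL : Lc w h) (h0 : h [] = 0) {n : ℕ}
    (hf : Mem (rc h ρ) n f) (J : ℕ) :
    ∃ Φ : ZMod p → List α → ZMod p, (∀ a, Lc w (Φ a)) ∧
      ∀ v : List α, n < {i ∈ Finset.range J | rc h ρ (v.drop i) ≠ 0}.card →
        f v = Φ (NN h v) v := by
  obtain ⟨Φ, h1, h2⟩ := decomp (ρ := ρ) hL hf J
  refine ⟨Φ, h1, fun v hv => h2 v ?_⟩
  have h3 : {i ∈ Finset.range J | i ≤ v.length ∧ rc h ρ (v.drop i) ≠ 0} =
      {i ∈ Finset.range J | rc h ρ (v.drop i) ≠ 0} := by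
    refine Finset.filter_congr fun i _ => and_iff_right_of_imp fun hi => ?_
    by_contra h4
    rw [List.drop_eq_nil_of_le (by omega)] at hi
    exact hi (by unfold rc; split_ifs <;> simp [h0])
  rw [h3]
  exact hv

end decomp

end Vale.Agent.P329.H657.Dec
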