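import Vale.Agent.P329.H962.Defs
import Vale.Agent.P329.H657.Decomp

/-!
# The decomposition in the literal form of `H962.Defs`
-/

set_option autoImplicit false

namespace Vale.Agent.P329.H657

open H259 (pw)

variable {α : Type} {p : ℕ}

theorem conv_N (h : List α → ZMod p) (X : List α) : Dec.NN h X = H962.N h X := by
  induction X with
  | nil => rfl
  | cons x X ih => rw [Dec.NN, H962.N, ih]

theorem conv_unc {w : List α → ZMod p} {V X : List α} : Dec.Unc w V X ↔ H962.Unc w V X :=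
  ⟨fun h B h1 h2 => h B h2 h1, fun h B h1 h2 => h B h2 h1⟩

theorem conv_ap {A : Type} {w : List α → ZMod p} {G : List α → A} :
    Dec.AP w G ↔ H962.AP w G := by
  unfold Dec.AP H962.AP
  refine forall_congr' fun v => exists_congr fun N => ?_
  constructor
  · intro h n hn X Y hU
    have := h n hn X Y (conv_unc.2 hU)
    simpa only [List.append_assoc] using this
  · intro h n hn X Y hU
    have := h n hn X Y (conv_unc.1 hU)
    simpa only [List.append_assoc] using this

theorem conv_nc (w : List α → ZMod p) (S c : List α) : Dec.nc w S c = H962.nc w S c := by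
  induction S with
  | nil => rfl
  | cons x S ih =>
    rw [Dec.nc, H962.nc, ih]
    congr 1
    by_cases h : w (x :: (S ++ c)) = 0
    · simp [h]
    · simp [h]

theorem conv_mem {A : Type} {w : List α → ZMod p} {n : ℕ} {G : List α → A} :
    Dec.Mem w n G ↔ H962.Mem w n G :=
  ⟨fun h c c' S h1 h2 h3 => h S c c' h1 h2 (by rwa [conv_nc]),
    fun h S c c' h1 h2 h3 => h c c' S h1 h2 (by rwa [conv_nc] at h3)⟩

theorem conv_lc {A : Type} {w : List α → ZMod p} {G : List α → A} :
    Dec.Lc w G ↔ H962.Lc w G := by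
  unfold Dec.Lc H962.Lc
  rw [conv_ap]
  refine and_congr Iff.rfl (and_congr Iff.rfl (exists_congr fun n => conv_mem))

theorem conv_rc (h : List α → ZMod p) (ρ : ZMod p) : Dec.rc h ρ = H962.rc h ρ := by
  funext X
  simp only [Dec.rc, H962.rc, conv_N]

/-- **Relative LOC / DECOMP** (363's I3, 585's A3) -/
theorem decomp [Finite α] {w h f : List α → ZMod p} (hL : H962.Lc w h) {ρ : ZMod p} {n : ℕ}
    (hf : H962.Mem (H962.rc h ρ) n f) (J : ℕ) :
    ∃ Φ : ZMod p → List α → ZMod p, (∀ a, H962.Lc w (Φ a)) ∧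
      ∀ v : List α,
        n < {i ∈ Finset.range J | i ≤ v.length ∧ H962.rc h ρ (v.drop i) ≠ 0}.card →
        f v = Φ (H962.N h v) v := by
  rw [← conv_rc] at hf ⊢
  obtain ⟨Φ, h1, h2⟩ := Dec.decomp (conv_lc.2 hL) (conv_mem.2 hf) J
  exact ⟨Φ, fun a => conv_lc.1 (h1 a), fun v hv => by rw [← conv_N]; exact h2 v hv⟩

theorem decomp' [Finite α] {w h f : List α → ZMod p} (hL : H962.Lc w h) (h0 : h [] = 0)
    {ρ : ZMod p} {n : ℕ} (hf : H962.Mem (H962.rc h ρ) n f) (J : ℕ) :
    ∃ Φ : ZMod p → List α → ZMod p, (∀ a, H962.Lc w (Φ a)) ∧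
      ∀ v : List α, n < {i ∈ Finset.range J | H962.rc h ρ (v.drop i) ≠ 0}.card →
        f v = Φ (H962.N h v) v := by
  rw [← conv_rc] at hf ⊢
  obtain ⟨Φ, h1, h2⟩ := Dec.decomp' (conv_lc.2 hL) h0 (conv_mem.2 hf) J
  exact ⟨Φ, fun a => conv_lc.1 (h1 a), fun v hv => by rw [← conv_N]; exact h2 v hv⟩

theorem tail_iter (i : ℕ) (v : List α) : List.tail^[i] v = v.drop i := by
  induction i generalizing v with
  | zero => simp
  | succ i ih => rw [Function.iterate_succ_apply, ih, List.drop_tail]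

/-- the form used by 458 / 585 -/
theorem loc_rel [Finite α] {w h f : List α → ZMod p} (hL : H962.Lc w h) (h0 : h [] = 0)
    {ρ : ZMod p} (hf : H962.Lc (H962.rc h ρ) f) :
    ∃ n, ∀ J : ℕ, ∃ Φ : ZMod p → List α → ZMod p, (∀ a, H962.Lc w (Φ a)) ∧
      ∀ v : List α, n ≤ {i ∈ Finset.range J | H962.rc h ρ (List.tail^[i] v) ≠ 0}.card →
        f v = Φ (H962.N h v) v := by
  obtain ⟨n, hn⟩ := hf.2.2
  refine ⟨n + 1, fun J => ?_⟩
  obtain ⟨Φ, h1, h2⟩ := decomp' hL h0 hn J
  refine ⟨Φ, h1, fun v hv => h2 v ?_⟩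
  simp only [tail_iter] at hv
  omega

end Vale.Agent.P329.H657
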