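import Vale.Agent.P329.H657.Skew

/-!
# First return maps of minimal systems
-/

set_option autoImplicit false
set_option linter.unusedSectionVars false

namespace Vale.Agent.P329.H657

open Set

section hit

variable {X : Type*} [TopologicalSpace X] {S : X → X} {U : Set X}

/-- every forward orbit meets every non-empty open set -/
theorem Min.hit (hS : Continuous S) (h : Min S) (hU : IsOpen U) (hne : U.Nonempty) (x : X) :
    ∃ n : ℕ, S^[n] x ∈ U := by
  obtain ⟨u, hu⟩ := hne
  obtain ⟨y, hy, n, rfl⟩ := ((Min_iff_dense hS).1 h x).inter_open_nonempty U hU ⟨u, hu⟩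
  exact ⟨n, hy⟩

/-- bounded hitting times -/
theorem Min.bdd [CompactSpace X] (hS : Continuous S) (h : Min S) (hU : IsOpen U)
    (hne : U.Nonempty) : ∃ N : ℕ, ∀ x, ∃ n ≤ N, S^[n] x ∈ U := by
  have h1 : (univ : Set X) ⊆ ⋃ n : ℕ, S^[n] ⁻¹' U := fun x _ => mem_iUnion.2 (h.hit hS hU hne x)
  obtain ⟨t, ht⟩ := isCompact_univ.elim_finite_subcover _
    (fun n => hU.preimage (hS.iterate n)) h1
  refine ⟨t.sup id, fun x => ?_⟩
  obtain ⟨n, hn, hx⟩ : ∃ n ∈ t, S^[n] x ∈ U := by simpa using ht (mem_univ x)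
  exact ⟨n, Finset.le_sup (f := id) hn, hx⟩

open Classical in
/-- the first time `≥ 0` in `U` -/
noncomputable def hitT (S : X → X) (U : Set X) (x : X) : ℕ :=
  if h : ∃ n : ℕ, S^[n] x ∈ U then Nat.find h else 0

theorem hitT_mem {x : X} (h : ∃ n : ℕ, S^[n] x ∈ U) : S^[hitT S U x] x ∈ U := by
  classical
  rw [hitT, dif_pos h]
  exact Nat.find_spec h

theorem hitT_not {x : X} {k : ℕ} (hk : k < hitT S U x) : S^[k] x ∉ U := by
  classical
  rw [hitT] at hk
  split_ifs at hk with h
  · exact Nat.find_min h hk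
  · exact absurd hk (Nat.not_lt_zero _)

theorem hitT_le {x : X} {k : ℕ} (hk : S^[k] x ∈ U) : hitT S U x ≤ k := by
  by_contra h
  exact hitT_not (not_le.1 h) hk

theorem hitT_zero {x : X} (hx : x ∈ U) : hitT S U x = 0 :=
  Nat.le_zero.1 (hitT_le (k := 0) hx)

theorem hitT_succ {x : X} (hx : x ∉ U) (h : ∃ n : ℕ, S^[n] x ∈ U) :
    hitT S U x = hitT S U (S x) + 1 := by
  obtain ⟨n, hn⟩ := h
  have h0 : ∃ n : ℕ, S^[n] x ∈ U := ⟨n, hn⟩
  have h1 : hitT S U x ≠ 0 := by
    intro h1
    have h2 := hitT_mem h0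
    rw [h1] at h2
    exact hx h2
  obtain ⟨k, hk⟩ := Nat.exists_eq_succ_of_ne_zero h1
  have h2 : S^[k] (S x) ∈ U := by
    have h3 := hitT_mem h0
    rw [hk, Function.iterate_succ_apply] at h3
    exact h3
  have h3 := hitT_le h2
  have h4 := hitT_mem (S := S) (U := U) (x := S x) ⟨k, h2⟩
  rw [← Function.iterate_succ_apply] at h4
  have h5 := hitT_le h4
  omega

theorem hitT_eq_iff {x : X} {n : ℕ} (h : ∃ n : ℕ, S^[n] x ∈ U) :
    hitT S U x = n ↔ S^[n] x ∈ U ∧ ∀ k < n, S^[k] x ∉ U := by
  constructor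
  · rintro rfl
    exact ⟨hitT_mem h, fun k hk => hitT_not hk⟩
  · rintro ⟨h1, h2⟩
    refine le_antisymm (hitT_le h1) ?_
    by_contra h3
    exact h2 _ (not_le.1 h3) (hitT_mem h)

/-- the hitting time of a clopen set is locally constant -/
theorem hitT_lc (hS : Continuous S) (hU : IsClopen U) (hh : ∀ x, ∃ n : ℕ, S^[n] x ∈ U) :
    IsLocallyConstant (hitT S U) := by
  rw [IsLocallyConstant.iff_isOpen_fiber]
  intro n
  have h1 : hitT S U ⁻¹' {n} = S^[n] ⁻¹' U ∩ ⋂ k ∈ Finset.range n, (S^[k] ⁻¹' U)ᶜ := by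
    ext x
    simp only [mem_preimage, mem_singleton_iff, mem_inter_iff, mem_iInter, Finset.mem_range,
      mem_compl_iff]
    exact hitT_eq_iff (hh x)
  rw [h1]
  exact (hU.2.preimage (hS.iterate n)).inter
    (isOpen_biInter_finset fun k _ => (hU.1.preimage (hS.iterate k)).isOpen_compl)

/-- the first return time -/
noncomputable def retT (S : X → X) (U : Set X) (x : X) : ℕ := hitT S U (S x) + 1

/-- the first return map -/
noncomputable def ret (S : X → X) (U : Set X) (x : X) : X := S^[retT S U x] x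

theorem retT_pos (x : X) : 0 < retT S U x := Nat.succ_pos _

theorem ret_mem {x : X} (h : ∃ n : ℕ, S^[n] (S x) ∈ U) : ret S U x ∈ U := by
  rw [ret, retT, Function.iterate_succ_apply]
  exact hitT_mem h

theorem retT_not {x : X} {k : ℕ} (h0 : 0 < k) (hk : k < retT S U x) : S^[k] x ∉ U := by
  obtain ⟨j, rfl⟩ := Nat.exists_eq_succ_of_ne_zero h0.ne'
  rw [Function.iterate_succ_apply]
  exact hitT_not (by rw [retT] at hk; omega)

theorem retT_lc (hS : Continuous S) (hU : IsClopen U) (hh : ∀ x, ∃ n : ℕ, S^[n] x ∈ U) :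
    IsLocallyConstant (retT S U) :=
  ((hitT_lc hS hU hh).comp_continuous hS).comp (· + 1)

theorem continuous_ret (hS : Continuous S) (hU : IsClopen U) (hh : ∀ x, ∃ n : ℕ, S^[n] x ∈ U) :
    Continuous (ret S U) := by
  rw [continuous_iff_continuousAt]
  intro x
  have h1 := (IsLocallyConstant.iff_eventually_eq _).1 (retT_lc hS hU hh) x
  refine ((hS.iterate (retT S U x)).continuousAt).congr ?_
  filter_upwards [h1] with y hy
  rw [ret, hy]

/-- the first return map on the subtype -/
noncomputable def retU (hh : ∀ x, ∃ n : ℕ, S^[n] x ∈ U) (x : U) : U :=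
  ⟨ret S U x, ret_mem (hh _)⟩

/-- the landing point, `X → U` -/
noncomputable def land (hh : ∀ x, ∃ n : ℕ, S^[n] x ∈ U) (x : X) : U :=
  ⟨S^[hitT S U x] x, hitT_mem (hh _)⟩

theorem continuous_retU (hS : Continuous S) (hU : IsClopen U)
    (hh : ∀ x, ∃ n : ℕ, S^[n] x ∈ U) : Continuous (retU hh) :=
  ((continuous_ret hS hU hh).comp continuous_subtype_val).subtype_mk _

theorem continuous_land (hS : Continuous S) (hU : IsClopen U)
    (hh : ∀ x, ∃ n : ℕ, S^[n] x ∈ U) : Continuous (land hh) := by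
  refine Continuous.subtype_mk (continuous_iff_continuousAt.2 fun x => ?_) _
  have h1 := (IsLocallyConstant.iff_eventually_eq _).1 (hitT_lc hS hU hh) x
  refine ((hS.iterate (hitT S U x)).continuousAt).congr ?_
  filter_upwards [h1] with y hy
  rw [hy]

/-- return times to a clopen set are bounded -/
theorem retT_bdd [CompactSpace X] (hS : Continuous S) (hU : IsClopen U)
    (hh : ∀ x, ∃ n : ℕ, S^[n] x ∈ U) : ∃ N, ∀ x, retT S U x ≤ N := by
  obtain ⟨N, hN⟩ := (retT_lc hS hU hh).range_finite.bddAbove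
  exact ⟨N, fun x => hN ⟨x, rfl⟩⟩

/-- **the first return map of a minimal system to a clopen set is minimal** -/
theorem Min.retU [CompactSpace X] [T2Space X] (hS : Continuous S) (h : Min S) (hU : IsClopen U)
    (hh : ∀ x, ∃ n : ℕ, S^[n] x ∈ U) : Min (retU hh) := by
  intro D hD hne hm
  obtain ⟨N, hN⟩ := retT_bdd hS hU hh
  let C : Set X := ⋃ k ∈ Finset.range N, S^[k] '' (Subtype.val '' D ∩ {x | k < retT S U x})
  have hC : IsClosed C := by
    refine (Finset.finite_toSet (Finset.range N)).isClosed_biUnion fun k _ => ?_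
    have h1 : IsClosed (Subtype.val '' D) := hU.1.isClosedEmbedding_subtypeVal.isClosedMap _ hD
    have h2 : IsClosed {x | k < retT S U x} :=
      ⟨by
        have h3 := (retT_lc hS hU hh) {n | k < n}ᶜ
        exact h3⟩
    exact ((h1.inter h2).isCompact.image (hS.iterate k)).isClosed
  have hmem : ∀ (x : X) (hx : x ∈ U), (⟨x, hx⟩ : U) ∈ D → ∀ k < retT S U x, S^[k] x ∈ C := by
    intro x hx hxD k hk
    refine mem_iUnion₂.2 ⟨k, Finset.mem_range.2 (hk.trans_le (hN x)), x, ⟨⟨_, hxD, rfl⟩, hk⟩, rfl⟩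
  have h1 : C = univ := by
    refine h C hC ?_ ?_
    · obtain ⟨x, hx⟩ := hne
      exact ⟨_, hmem x.1 x.2 hx 0 (retT_pos _)⟩
    · intro y hy
      obtain ⟨k, hk, x, ⟨⟨x', hx', rfl⟩, hkx⟩, rfl⟩ := mem_iUnion₂.1 hy
      show S (S^[k] x'.1) ∈ C
      rw [← Function.iterate_succ_apply' S k x'.1]
      rcases (show k + 1 ≤ retT S U x'.1 from hkx).lt_or_eq with h2 | h2
      · exact hmem x'.1 x'.2 hx' _ h2
      · have h3 := hmem (ret S U x'.1) (ret_mem (hh _)) (hm hx') 0 (retT_pos _)
        rw [Function.iterate_zero, id] at h3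
        rw [ret, ← h2] at h3
        exact h3
  refine univ_subset_iff.1 fun u _ => ?_
  have h2 : u.1 ∈ C := by rw [h1]; trivial
  obtain ⟨k, hk, x, ⟨⟨x', hx', rfl⟩, hkx⟩, hu⟩ := mem_iUnion₂.1 h2
  rcases Nat.eq_zero_or_pos k with rfl | hk0
  · have h3 : u = x' := Subtype.ext hu.symm
    rw [h3]
    exact hx'
  · exact absurd (show S^[k] x'.1 ∈ U from hu ▸ u.2) (retT_not hk0 hkx)

end hit

section cob

variable {X : Type*} [TopologicalSpace X] {S : X → X} {U : Set X} {A : Type*} [AddCommGroup A]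
  [TopologicalSpace A] [DiscreteTopology A]

/-- the sum of `φ` along the return time -/
noncomputable def retSum (S : X → X) (U : Set X) (φ : X → A) (x : X) : A :=
  ∑ i ∈ Finset.range (retT S U x), φ (S^[i] x)

theorem continuous_retSum (hS : Continuous S) (hU : IsClopen U)
    (hh : ∀ x, ∃ n : ℕ, S^[n] x ∈ U) {φ : X → A} (hφ : Continuous φ) :
    Continuous (retSum S U φ) := by
  rw [continuous_iff_continuousAt]
  intro x
  have h1 := (IsLocallyConstant.iff_eventually_eq _).1 (retT_lc hS hU hh) x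
  have h2 : Continuous fun y => ∑ i ∈ Finset.range (retT S U x), φ (S^[i] y) :=
    continuous_finsetSum _ fun i _ => hφ.comp (hS.iterate i)
  refine h2.continuousAt.congr ?_
  filter_upwards [h1] with y hy
  rw [retSum, hy]

/-- a coboundary on the return system comes from a coboundary -/
theorem cob_of_ret (hS : Continuous S) (hU : IsClopen U)
    (hh : ∀ x, ∃ n : ℕ, S^[n] x ∈ U) {φ : X → A} (hφ : Continuous φ) {F : U → A}
    (hF : Continuous F) (h : ∀ x : U, retSum S U φ x = F (retU hh x) - F x) :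
    ∃ G : X → A, Continuous G ∧ (∀ x : U, G x = F x) ∧ ∀ y, φ y = G (S y) - G y := by
  let G : X → A := fun y => F (land hh y) - ∑ i ∈ Finset.range (hitT S U y), φ (S^[i] y)
  have hland : ∀ (x : X) (hx : x ∈ U), land hh x = ⟨x, hx⟩ := fun x hx => Subtype.ext (by
    show S^[hitT S U x] x = x
    rw [hitT_zero hx]
    rfl)
  have hG : ∀ x : U, G x = F x := fun x => by
    show F (land hh x.1) - _ = _
    rw [hland x.1 x.2, hitT_zero x.2]
    simp
  refine ⟨G, ?_, hG, fun y => ?_⟩
  · refine (hF.comp (continuous_land hS hU hh)).sub ?_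
    rw [continuous_iff_continuousAt]
    intro x
    have h1 := (IsLocallyConstant.iff_eventually_eq _).1 (hitT_lc hS hU hh) x
    have h2 : Continuous fun y => ∑ i ∈ Finset.range (hitT S U x), φ (S^[i] y) :=
      continuous_finsetSum _ fun i _ => hφ.comp (hS.iterate i)
    refine h2.continuousAt.congr ?_
    filter_upwards [h1] with y hy
    rw [hy]
  · by_cases hy : y ∈ U
    · rw [hG ⟨y, hy⟩]
      show φ y = F (land hh (S y)) - _ - _
      have h1 : land hh (S y) = retU hh ⟨y, hy⟩ := Subtype.ext (by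
        show S^[hitT S U (S y)] (S y) = S^[retT S U y] y
        rw [retT, Function.iterate_succ_apply])
      have h2 := h ⟨y, hy⟩
      rw [retSum, retT, Finset.sum_range_succ'] at h2
      rw [h1]
      simp only [Function.iterate_succ_apply, Function.iterate_zero, id] at h2
      rw [eq_sub_iff_add_eq] at h2
      rw [← h2]
      abel
    · have h1 := hitT_succ hy (hh y)
      have h2 : land hh y = land hh (S y) := Subtype.ext (by
        show S^[hitT S U y] y = S^[hitT S U (S y)] (S y)
        rw [h1, Function.iterate_succ_apply])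
      show φ y = (F (land hh (S y)) - _) - (F (land hh y) - _)
      rw [h2, h1, Finset.sum_range_succ']
      simp only [Function.iterate_succ_apply, Function.iterate_zero, id]
      abel

/-- a coboundary gives a coboundary on the return system -/
theorem ret_of_cob {φ G : X → A} (h : ∀ y, φ y = G (S y) - G y) (x : X) :
    retSum S U φ x = G (ret S U x) - G x := by
  rw [retSum, ret]
  have h1 : ∀ i, φ (S^[i] x) = G (S^[i + 1] x) - G (S^[i] x) := fun i => by
    rw [h, Function.iterate_succ_apply']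
  simp only [h1]
  rw [Finset.sum_range_sub (fun i => G (S^[i] x))]
  rfl

end cob

end Vale.Agent.P329.H657
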