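import Mathlib

/-!
# Skew products with fibre `ZMod p` over minimal systems
-/

set_option autoImplicit false

namespace Vale.Agent.P329.H657

open Set

/-- every non-empty closed forward invariant set is the whole space -/
def Min {Y : Type*} [TopologicalSpace Y] (T : Y → Y) : Prop :=
  ∀ C : Set Y, IsClosed C → C.Nonempty → MapsTo T C C → C = univ

theorem Min_iff_dense {Y : Type*} [TopologicalSpace Y] {T : Y → Y} (hT : Continuous T) :
    Min T ↔ ∀ y : Y, Dense {x | ∃ n : ℕ, x = T^[n] y} := by
  constructor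
  · intro h y
    have h1 := h (closure {x | ∃ n : ℕ, x = T^[n] y}) isClosed_closure
      ⟨y, subset_closure ⟨0, rfl⟩⟩ ?_
    · exact dense_iff_closure_eq.2 h1
    · have h2 : MapsTo T {x | ∃ n : ℕ, x = T^[n] y} {x | ∃ n : ℕ, x = T^[n] y} := by
        rintro x ⟨n, rfl⟩
        exact ⟨n + 1, (Function.iterate_succ_apply' T n y).symm⟩
      exact h2.closure hT
  · intro h C hC hne hm
    obtain ⟨y, hy⟩ := hne
    have h1 : {x | ∃ n : ℕ, x = T^[n] y} ⊆ C := by
      rintro x ⟨n, rfl⟩
      exact hm.iterate n hy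
    have h2 := closure_minimal h1 hC
    rw [(h y).closure_eq] at h2
    exact univ_subset_iff.1 h2

/-- in a compact space there is a minimal non-empty closed invariant subset -/
theorem exists_minimal_inv {X : Type*} [TopologicalSpace X] [CompactSpace X] {S : X → X}
    (hne : Nonempty X) :
    ∃ M : Set X, IsClosed M ∧ M.Nonempty ∧ MapsTo S M M ∧
      ∀ C : Set X, IsClosed C → C.Nonempty → MapsTo S C C → C ⊆ M → C = M := by
  let A : Set (Set X) := {M | IsClosed M ∧ M.Nonempty ∧ MapsTo S M M}
  obtain ⟨M, hM⟩ : ∃ M, Minimal (· ∈ A) M := by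
    refine zorn_superset_nonempty A ?_ univ ⟨isClosed_univ, univ_nonempty, mapsTo_univ _ _⟩ |>.imp
      fun _ h => h.2
    intro c hcA hc hcne
    refine ⟨⋂₀ c, ⟨isClosed_sInter fun s hs => (hcA hs).1, ?_, ?_⟩, fun s hs => sInter_subset_of_mem hs⟩
    · have : Nonempty c := hcne.to_subtype
      refine IsCompact.nonempty_sInter_of_directed_nonempty_isCompact_isClosed ?_
        (fun s hs => (hcA hs).2.1) (fun s hs => (hcA hs).1.isCompact) (fun s hs => (hcA hs).1)
      exact fun a ha b hb => (hc.total ha hb).elim (fun h => ⟨a, ha, subset_rfl, h⟩)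
        fun h => ⟨b, hb, h, subset_rfl⟩
    · intro x hx s hs
      exact (hcA hs).2.2 (hx s hs)
  refine ⟨M, hM.1.1, hM.1.2.1, hM.1.2.2, fun C h1 h2 h3 h4 => ?_⟩
  exact Subset.antisymm h4 (hM.2 (show C ∈ A from ⟨h1, h2, h3⟩) h4)

section skew

variable {Y : Type*} [TopologicalSpace Y] {p : ℕ}

/-- the skew product -/
def skew (T : Y → Y) (σ : Y → ZMod p) (x : Y × ZMod p) : Y × ZMod p := (T x.1, x.2 + σ x.1)

/-- rotation of the fibres -/
def rot (c : ZMod p) (x : Y × ZMod p) : Y × ZMod p := (x.1, x.2 + c)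

theorem continuous_skew {T : Y → Y} {σ : Y → ZMod p} (hT : Continuous T) (hσ : Continuous σ) :
    Continuous (skew T σ) :=
  (hT.comp continuous_fst).prodMk (continuous_snd.add (hσ.comp continuous_fst))

theorem continuous_rot (c : ZMod p) : Continuous (rot (Y := Y) c) :=
  continuous_fst.prodMk (continuous_snd.add continuous_const)

omit [TopologicalSpace Y] in
theorem skew_rot (T : Y → Y) (σ : Y → ZMod p) (c : ZMod p) (x : Y × ZMod p) :
    skew T σ (rot c x) = rot c (skew T σ x) := by
  simp only [skew, rot]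
  congr 1
  ring

omit [TopologicalSpace Y] in
theorem rot_rot (a c : ZMod p) (x : Y × ZMod p) : rot a (rot c x) = rot (c + a) x := by
  simp only [rot]
  congr 1
  ring

omit [TopologicalSpace Y] in
theorem rot_zero (x : Y × ZMod p) : rot 0 x = x := by simp [rot]

/-- **Minimality of skew products**: if the base is minimal and compact then the skew product with a
continuous `σ : Y → ZMod p`, `p` prime, is minimal or `σ` is a coboundary. -/
theorem skew_min [CompactSpace Y] [T2Space Y] [Nonempty Y] [Fact p.Prime] {T : Y → Y}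
    {σ : Y → ZMod p} (hmin : Min T)
    (hcob : ¬ ∃ f : Y → ZMod p, Continuous f ∧ ∀ y, σ y = f (T y) - f y) : Min (skew T σ) := by
  have : NeZero p := ⟨(Fact.out : p.Prime).ne_zero⟩
  have : CompactSpace (Y × ZMod p) := inferInstance
  intro C hC hne hm
  have : CompactSpace C := isCompact_iff_compactSpace.1 hC.isCompact
  have : Nonempty C := hne.to_subtype
  -- a minimal set inside `C`
  obtain ⟨M', hM'c, hM'n, hM'm, hM'⟩ := exists_minimal_inv (X := C)
    (S := fun x => ⟨skew T σ x.1, hm x.2⟩) inferInstance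
  set M : Set (Y × ZMod p) := Subtype.val '' M' with hMdef
  have hMC : M ⊆ C := by
    rintro _ ⟨x, _, rfl⟩
    exact x.2
  have hMcl : IsClosed M := hC.isClosedEmbedding_subtypeVal.isClosedMap _ hM'c
  have hMne : M.Nonempty := hM'n.image _
  have hMm : MapsTo (skew T σ) M M := by
    rintro _ ⟨x, hx, rfl⟩
    exact ⟨_, hM'm hx, rfl⟩
  have hMmin : ∀ D : Set (Y × ZMod p), IsClosed D → D.Nonempty → MapsTo (skew T σ) D D → D ⊆ M →
      D = M := by
    intro D h1 h2 h3 h4
    have h5 := hM' (Subtype.val ⁻¹' D) (h1.preimage continuous_subtype_val) ?_ ?_ ?_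
    · rw [hMdef, ← h5, Subtype.image_preimage_coe,
        inter_eq_self_of_subset_right (h4.trans hMC)]
    · obtain ⟨x, hx⟩ := h2
      exact ⟨⟨x, hMC (h4 hx)⟩, hx⟩
    · intro x hx
      exact h3 hx
    · intro x hx
      obtain ⟨y, hy, hyx⟩ := h4 hx
      rwa [← Subtype.ext hyx]
  -- the translates
  have hdis : ∀ c : ZMod p, (∃ x ∈ M, rot c x ∈ M) → ∀ x ∈ M, rot c x ∈ M := by
    rintro c ⟨x, hx, hcx⟩
    have h1 := hMmin (M ∩ rot c ⁻¹' M) (hMcl.inter (hMcl.preimage (continuous_rot c)))
      ⟨x, hx, hcx⟩ (fun y hy => ⟨hMm hy.1, by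
        show rot c (skew T σ y) ∈ M
        rw [← skew_rot]
        exact hMm hy.2⟩) inter_subset_left
    intro y hy
    rw [← h1] at hy
    exact hy.2
  by_cases hH : ∃ c : ZMod p, c ≠ 0 ∧ ∃ x ∈ M, rot c x ∈ M
  · -- `M` is invariant under all rotations, hence everything
    obtain ⟨c, hc, hx⟩ := hH
    have h1 := hdis c hx
    have h2 : ∀ n : ℕ, ∀ x ∈ M, rot ((n : ZMod p) * c) x ∈ M := by
      intro n
      induction n with
      | zero => intro x hx; simpa [rot_zero] using hx
      | succ n ih =>
        intro x hx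
        have h3 := h1 _ (ih x hx)
        rw [rot_rot] at h3
        convert h3 using 2
        push_cast
        ring
    have h3 : ∀ a : ZMod p, ∀ x ∈ M, rot a x ∈ M := by
      intro a x hx
      have h4 := h2 (a / c).val x hx
      rw [ZMod.natCast_zmod_val, div_mul_cancel₀ _ hc] at h4
      exact h4
    have h4 : Prod.fst '' M = univ := by
      refine hmin _ ?_ (hMne.image _) ?_
      · exact (hMcl.isCompact.image continuous_fst).isClosed
      · rintro _ ⟨x, hx, rfl⟩
        exact ⟨_, hMm hx, rfl⟩
    refine univ_subset_iff.1 fun x _ => hMC ?_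
    obtain ⟨y, hy, hyx⟩ : x.1 ∈ Prod.fst '' M := by rw [h4]; trivial
    have h5 := h3 (x.2 - y.2) y hy
    have h6 : rot (x.2 - y.2) y = x := by
      simp only [rot, hyx]
      ext
      · rfl
      · simp
    rwa [h6] at h5
  · -- `M` is a graph
    exfalso
    apply hcob
    have h4 : Prod.fst '' M = univ := by
      refine hmin _ ?_ (hMne.image _) ?_
      · exact (hMcl.isCompact.image continuous_fst).isClosed
      · rintro _ ⟨x, hx, rfl⟩
        exact ⟨_, hMm hx, rfl⟩
    have h5 : ∀ y : Y, ∃ s : ZMod p, (y, s) ∈ M := by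
      intro y
      obtain ⟨x, hx, hxy⟩ : y ∈ Prod.fst '' M := by rw [h4]; trivial
      exact ⟨x.2, by rw [← hxy]; exact hx⟩
    have h6 : ∀ (y : Y) (s t : ZMod p), (y, s) ∈ M → (y, t) ∈ M → s = t := by
      intro y s t h7 h8
      by_contra hst
      refine hH ⟨t - s, sub_ne_zero.2 (Ne.symm hst), (y, s), h7, ?_⟩
      simpa [rot] using h8
    choose f hf using h5
    refine ⟨f, ?_, ?_⟩
    · refine continuous_discrete_rng.2 fun s => ?_
      have h8 : ∀ s : ZMod p, IsClosed (f ⁻¹' {s}) := fun s => by
        have h9 : f ⁻¹' {s} = (fun y => (y, s)) ⁻¹' M := by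
          ext y
          constructor
          · intro hy
            have : f y = s := hy
            show (y, s) ∈ M
            rw [← this]
            exact hf y
          · intro hy
            exact h6 y _ _ (hf y) hy
        rw [h9]
        exact hMcl.preimage (Continuous.prodMk_left s)
      have h10 : f ⁻¹' {s} = (⋃ t ∈ ({s}ᶜ : Set (ZMod p)), f ⁻¹' {t})ᶜ := by
        ext y
        simp only [mem_preimage, mem_singleton_iff, mem_compl_iff, mem_iUnion, exists_prop,
          not_exists, not_and]
        exact ⟨fun h t ht h' => ht (h' ▸ h), fun h => by_contra fun h' => h _ h' rfl⟩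
      rw [h10, isOpen_compl_iff]
      exact (Set.toFinite _).isClosed_biUnion fun t _ => h8 t
    · intro y
      have h7 := hMm (hf y)
      have h8 := h6 (T y) _ _ (hf (T y)) h7
      rw [h8]
      simp

end skew

end Vale.Agent.P329.H657
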